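import Vale.Agent.P264.All

/-!
The Calabi flow on a complex projective space can have a finite maximal existence time.
-/

namespace Vale.Agent.Results.P264.Blowup

open Vale.Agent.P264

theorem result : ∃ n : ℕ, 2 ≤ n ∧ ∃ φ₀ : CP n → ℝ, SmoothFn φ₀ ∧ IsKahler φ₀ ∧
    ∀ (Sbar : ℝ) (φ : ℝ → CP n → ℝ), ¬ IsGlobalFlow φ₀ Sbar φ :=
  goal

end Vale.Agent.Results.P264.Blowup
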